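import Vale.Agent.P002.H2.TL
import Vale.Agent.P002.Bd3.B14

/-!
# Potential density of integral points: representations with given character on a normal subgroup
-/

namespace Vale.Agent.Results.P002.NormalSubgroups

open Matrix NumberField Vale.Agent.P002R.Orb Vale.Agent.P002.H326J Vale.Agent.P002.H2

/-- `Γ = ⟨ι | R⟩` is any finitely generated group (e.g. the fundamental group of any smooth
quasi-projective variety) and `O` any finite `Γ`-equivariant family of maps of subgroups of finite
index of `Γ` to orbifold groups of curves (see `OrbFamily`), with common kernel `O.K`. For all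
ranks `r`, all quasi-unipotent classes `C j` of elements `w j` (meridians) which are mapped by the
family to loops around marked points (`IsPeripheral`), all normal subgroups `N` of `Γ` contained in
`O.K` and all functions `t` on `N` with values in the algebraic integers: some number field `L`
makes the `𝓞 L`-integral points, and the representations into `SL_r(𝓞 L)`, Zariski dense in the
locus `YRel` of those points of `Y = YW` which have character `t` on `N` and for which some term of
the derived series of a subgroup of finite index of `O.K` is mapped to the linear span of the image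
of `N`. If `O.K` is virtually solvable modulo `N`, this locus is the set `YTr` of all points of `Y`
with character `t` on `N`. For `N = 1` it is the set `YKer` of the points of `Y` with virtually
solvable image of `O.K`. -/
theorem result (ι : Type) [Finite ι] (R : Set (FreeGroup ι)) (O : OrbFamily (PresentedGroup R))
    (r s : ℕ) (w : Fin s → FreeGroup ι) (C : Fin s → SpecialLinearGroup (Fin r) ℂ)
    (hC : ∀ j z, IsEigenvalue (C j) z → ∃ n : ℕ, 0 < n ∧ z ^ n = 1)
    (hw : ∀ j, O.IsPeripheral (PresentedGroup.mk R (w j))) :
    (∀ N : Subgroup (PresentedGroup R), N.Normal → N ≤ O.K → ∀ t : N → ℂ,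
      (∀ x, IsIntegral ℤ (t x)) →
      (∃ L : IntermediateField ℚ ℂ, FiniteDimensional ℚ L ∧
        IsDense R L (YRel R w C O.K N t) ∧ IsDenseRep L (YRel R w C O.K N t)) ∧
      (VSMod O.K N → YRel R w C O.K N t = YTr R w C N t)) ∧
    YRel R w C O.K ⊥ (fun _ => (r : ℂ)) = YKer R w C O.K ∧
    ((∃ H : Subgroup O.K, Group.IsSolvable H ∧ H.FiniteIndex) → YKer R w C O.K = YW R w C) := by
  refine ⟨fun N hn hN t ht => ⟨?_, yrel_eq w C O.K N t⟩, yrel_bot w C O.K, yker_eq w C O.K⟩
  obtain ⟨L, hL, h⟩ := main_T3 O r w C hC hw N hn hN t ht
  exact ⟨L, hL, h.isDense, h⟩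

end Vale.Agent.Results.P002.NormalSubgroups
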