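import Vale.Agent.P002.H2.YG

/-!
# One integral point in each component: integral points of bounded degree are dense
-/

namespace Vale.Agent.Results.P002.OneIntegralPoint

open Matrix NumberField Vale.Agent.P002R.Orb Vale.Agent.P002.H326J Vale.Agent.P002.H2

/-- `Γ = ⟨ι | R⟩` is any finitely generated group (e.g. the fundamental group of any smooth
quasi-projective variety), `r` any rank and the `C j` are any conjugacy classes, prescribed at the
elements `w j` (meridians); `Y = YW`. The Zariski topology of `M_r` is the one defined by the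
invariant functions; components, closures and density of sets of points of `M_r` refer to it.

(1) For every irreducible component `Z` of `Y` the following are equivalent: the points of `Z`
which are integral over some number field are Zariski dense in `Z`; the closure of `Z` in `M_r`
contains a point with integral traces; there is a `d` such that the representations in `Z` over the
rings of integers of number fields of degree at most `d` are Zariski dense in `Z`, even as a set of
points of the representation variety.
(2) The following are equivalent: the weak form of the density question for `Y` (the points of `Y`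
which are integral over some number field are Zariski dense in `Y`); the closure of every
irreducible component of `Y` contains a point with integral traces; for some `d` the points of `Y`
which are integral over number fields of degree at most `d` are dense in `Y`; for some `d` the
representations in `Y` over rings of integers of number fields of degree at most `d` are Zariski
dense in `Y` as a set of points of the representation variety.
(3) A point of `M_r(ℂ)` has integral traces if and only if it is `𝓞 L`-integral for some number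
field `L`.
(4) `Y` has only finitely many components and is their union. -/
theorem result (ι : Type) [Finite ι] (R : Set (FreeGroup ι)) (r s : ℕ) (w : Fin s → FreeGroup ι)
    (C : Fin s → SpecialLinearGroup (Fin r) ℂ) :
    (∀ Z, IsComponentM R Z (YW R w C) → List.TFAE [
      IsDenseAll R Z,
      ∃ X, InClosureM R Z X ∧ ∀ x, IsIntegral ℤ (FreeGroup.lift X x).1.trace,
      ∃ d, IsDenseRepDeg d Z]) ∧
    List.TFAE [
      IsDenseAll R (YW R w C),
      ∀ Z, IsComponentM R Z (YW R w C) →
        ∃ X, InClosureM R Z X ∧ ∀ x, IsIntegral ℤ (FreeGroup.lift X x).1.trace,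
      ∃ d, IsDenseDeg R d (YW R w C),
      ∃ d, IsDenseRepDeg d (YW R w C)] ∧
    (∀ X ∈ YNone R r, (∀ x, IsIntegral ℤ (FreeGroup.lift X x).1.trace) ↔
      ∃ L : IntermediateField ℚ ℂ, FiniteDimensional ℚ L ∧ IsIntegralPoint R L X) ∧
    {Z | IsComponentM R Z (YW R w C)}.Finite ∧
    ⋃₀ {Z | IsComponentM R Z (YW R w C)} = YW R w C := by
  have h0 : ∀ X ∈ YNone R r, (∀ x, IsIntegral ℤ (FreeGroup.lift X x).1.trace) ↔
      ∃ L : IntermediateField ℚ ℂ, FiniteDimensional ℚ L ∧ IsIntegralPoint R L X :=
    fun X hX => ⟨integralPoint_of_trace R X hX, fun ⟨L, _, h⟩ x => integral_trace h x⟩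
  have h1 : ∀ Z, IsComponentM R Z (YW R w C) →
      (∃ X, InClosureM R Z X ∧ ∀ x, IsIntegral ℤ (FreeGroup.lift X x).1.trace) →
      ∃ d, IsDenseRepDeg d Z := by
    rintro Z hZ ⟨X, hX, ht⟩
    obtain ⟨L, -, hL⟩ := (h0 X hX.1).1 ht
    exact dense_of_point hZ hX hL
  have hcl : ∀ Z, IsComponentM R Z (YW R w C) → ∀ X ∈ Z, InClosureM R Z X :=
    fun Z hZ X hX => ⟨(hZ.1 hX).1, fun F _ hF => hF X hX⟩
  have hone : ∀ (X : ι → SpecialLinearGroup (Fin r) ℂ),
      value (1 : MvPolynomial (ι × Fin r × Fin r) ℂ) X = 1 := by
    intro X
    unfold value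
    rw [MvPolynomial.eval₂_one]
  have hinv : IsInvariant R (1 : MvPolynomial (ι × Fin r × Fin r) ℂ) := by
    intro A _ _ X P _
    unfold value
    rw [MvPolynomial.eval₂_one, MvPolynomial.eval₂_one]
  refine ⟨fun Z hZ => ?_, ?_, h0, ?_, ?_⟩
  · tfae_have 1 → 2 := by
      intro h
      by_contra hcon
      push Not at hcon
      obtain ⟨X, hX⟩ := hZ.2.1.1
      have h2 := h 1 hinv (fun X hX hint => by
        obtain ⟨x, hx⟩ := hcon X (hcl Z hZ X hX)
        exact absurd ((h0 X (hZ.1 hX).1).2 hint x) hx) X hX
      rw [hone] at h2
      exact one_ne_zero h2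
    tfae_have 2 → 3 := h1 Z hZ
    tfae_have 3 → 1 := fun ⟨d, hd⟩ => (hd.isDenseDeg (R := R)).isDenseAll
    tfae_finish
  · tfae_have 1 → 2 := by
      intro h Z hZ
      obtain ⟨X, hX, hint⟩ := exists_of_denseAll h hZ
      exact ⟨X, hcl Z hZ X hX, (h0 X (hZ.1 hX).1).2 hint⟩
    tfae_have 2 → 4 := fun h => dense_of_points fun Z hZ => h1 Z hZ (h Z hZ)
    tfae_have 4 → 3 := fun ⟨d, hd⟩ => ⟨d, hd.isDenseDeg⟩
    tfae_have 3 → 1 := fun ⟨d, hd⟩ => hd.isDenseAll
    tfae_finish
  · obtain ⟨n, Z, -, -, h2, -⟩ := components_M R (YW R w C)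
    refine (Set.finite_range Z).subset fun W hW => ?_
    obtain ⟨i, rfl⟩ := h2 W hW
    exact ⟨i, rfl⟩
  · obtain ⟨n, Z, h2, h3, -, -⟩ := components_M R (YW R w C)
    refine Set.Subset.antisymm (Set.sUnion_subset fun W hW => hW.1) fun X hX => ?_
    rw [← h3] at hX
    obtain ⟨i, hi⟩ := Set.mem_iUnion.1 hX
    exact ⟨Z i, h2 i, hi⟩

end Vale.Agent.Results.P002.OneIntegralPoint
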