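import Vale.Agent.P002.H2.MI

/-!
# Potential density of integral points where all constituents are mixtures of integral, curve-type
and virtually solvable representations
-/

namespace Vale.Agent.Results.P002.TypedConstituents

open Matrix NumberField Vale.Agent.P002R.Orb Vale.Agent.P002.H326J Vale.Agent.P002.H2
  Vale.Agent.P002.H252

/-- `Γ = ⟨ι | R⟩` is any finitely generated group (e.g. the fundamental group of any smooth
quasi-projective variety), `r` any rank and the `C j` are any quasi-unipotent classes, prescribed at
the elements `w j` (meridians). A point `X` of `Y = YW` is typed (`IsTyped`) if for every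
irreducible subrepresentation `W` of `X` there are a finite `Γ`-equivariant family `O` of maps of
subgroups of finite index of `Γ` to orbifold groups of curves for which the `w j` are peripheral,
with common kernel `K`, and a normal subgroup `N` of `Γ` contained in `K`, such that the character
of `W` is integral on `N` and some term of the derived series of some subgroup of finite index of
`K` acts on `W` through the linear span of the image of `N` (see `HasType`, `TypeDatum.Valid`).

(1) If the very general points of an open subset `U` of `Y` are typed (all points of `U` outside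
countably many closed subsets with dense complement; the types may depend on the point), then
some number field `L` makes the `𝓞 L`-integral points, and the representations into `SL_r(𝓞 L)`,
Zariski dense in `U`.
(2) In particular this holds for `U = Y` if all points of `Y` are typed.
(3) It holds for the set `YMulti` of the points of `Y` which are direct sums of irreducible
subrepresentations of given types.
(4) A point `X` of `Y` is typed if the traces of `X` on `N` are integral for some normal subgroup
`N` of `Γ` contained in some `K` as above such that `K` is virtually solvable modulo `N`.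
(5) So (2) applies if for all points of `Y` the traces on one such `N` are integral; for example
(`N = 1`) if `K` is virtually solvable. -/
theorem result (ι : Type) [Finite ι] (R : Set (FreeGroup ι)) (r s : ℕ) (w : Fin s → FreeGroup ι)
    (C : Fin s → SpecialLinearGroup (Fin r) ℂ)
    (hC : ∀ j z, IsEigenvalue (C j) z → ∃ n : ℕ, 0 < n ∧ z ^ n = 1) :
    (∀ (P : Set (MvPolynomial (ι × Fin r × Fin r) ℂ))
      (B : ℕ → Set (MvPolynomial (ι × Fin r × Fin r) ℂ)),
      (∀ n, IsDenseIn (OpenIn (OpenIn (YW R w C) P) (B n)) (OpenIn (YW R w C) P)) →
      (∀ X ∈ OpenIn (YW R w C) P, (∀ n, ∃ F ∈ B n, value F X ≠ 0) → IsTyped R w X) →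
      ∃ L : IntermediateField ℚ ℂ, FiniteDimensional ℚ L ∧
        IsDense R L (OpenIn (YW R w C) P) ∧ IsDenseRep L (OpenIn (YW R w C) P)) ∧
    ((∀ X ∈ YW R w C, IsTyped R w X) → ∃ L : IntermediateField ℚ ℂ, FiniteDimensional ℚ L ∧
      IsDense R L (YW R w C) ∧ IsDenseRep L (YW R w C)) ∧
    (∀ (k : ℕ) (D : Fin k → TypeDatum (PresentedGroup R)),
      (∀ a, (D a).Valid fun j => PresentedGroup.mk R (w j)) →
      ∃ L : IntermediateField ℚ ℂ, FiniteDimensional ℚ L ∧
        IsDense R L (YMulti R w C k D) ∧ IsDenseRep L (YMulti R w C k D)) ∧
    (∀ O : OrbFamily (PresentedGroup R), (∀ j, O.IsPeripheral (PresentedGroup.mk R (w j))) →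
      ∀ N : Subgroup (PresentedGroup R), N.Normal → N ≤ O.K → VSMod O.K N →
      (∀ X ∈ YW R w C, (∀ x, PresentedGroup.mk R x ∈ N →
        IsIntegral ℤ (FreeGroup.lift X x).1.trace) → IsTyped R w X) ∧
      ((∀ X ∈ YW R w C, ∀ x, PresentedGroup.mk R x ∈ N →
        IsIntegral ℤ (FreeGroup.lift X x).1.trace) →
        ∃ L : IntermediateField ℚ ℂ, FiniteDimensional ℚ L ∧
          IsDense R L (YW R w C) ∧ IsDenseRep L (YW R w C))) := by
  refine ⟨uniform_open w C hC, uniform_all w C hC, fun k D hD => ?_,
    fun O hO N hN hNK hK => ⟨isTyped_of_trace w C O hO N hN hNK hK, fun h => ?_⟩⟩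
  · obtain ⟨L, hL, h⟩ := main_multi r w C hC k D hD
    exact ⟨L, hL, h.isDense, h⟩
  · exact uniform_all w C hC fun X hX => isTyped_of_trace w C O hO N hN hNK hK X hX (h X hX)

end Vale.Agent.Results.P002.TypedConstituents
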